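import Mathlib

/-! # Translative covering density: definitions -/

namespace Vale.Agent.Lib.P230

open MeasureTheory Filter Set
open scoped ENNReal

/-- The cube `Q_R = [-R, R]^n` in `ℝ^n = Fin n → ℝ`. -/
def Q (n : ℕ) (R : ℝ) : Set (Fin n → ℝ) := {x | ∀ i, |x i| ≤ R}

/-- `X` is locally finite: every cube `Q_R` (hence every bounded set) contains finitely many
points of `X`. -/
def LocFin {n : ℕ} (X : Set (Fin n → ℝ)) : Prop := ∀ R : ℝ, (X ∩ Q n R).Finite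

/-- The upper density `limsup_{R → ∞} #(X ∩ Q_R) / (2R)^n` of a point set, in `[0, ∞]`. -/
noncomputable def dens {n : ℕ} (X : Set (Fin n → ℝ)) : ℝ≥0∞ :=
  limsup (fun R : ℝ => ((X ∩ Q n R).encard : ℝ≥0∞) / ENNReal.ofReal ((2 * R) ^ n)) atTop

/-- The translates `K + x`, `x ∈ X`, cover the whole space: `K + X = ℝ^n`. -/
def Covers {n : ℕ} (K X : Set (Fin n → ℝ)) : Prop := ∀ z, ∃ x ∈ X, z - x ∈ K

/-- The translative covering density
`θ_T(K) = inf { vol(K) limsup_R #(X ∩ Q_R)/(2R)^n : X locally finite, K + X = ℝ^n }`. -/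
noncomputable def thetaT {n : ℕ} (K : Set (Fin n → ℝ)) : ℝ≥0∞ :=
  ⨅ (X : Set (Fin n → ℝ)) (_ : LocFin X) (_ : Covers K X), volume K * dens X

/-- A convex body: compact, convex, with nonempty interior. -/
def IsBody {n : ℕ} (K : Set (Fin n → ℝ)) : Prop :=
  IsCompact K ∧ Convex ℝ K ∧ (interior K).Nonempty

/-- `Θ_T(n) = sup_K θ_T(K)` over all convex bodies `K ⊆ ℝ^n`. -/
noncomputable def ThetaT (n : ℕ) : ℝ≥0∞ :=
  ⨆ (K : Set (Fin n → ℝ)) (_ : IsBody K), thetaT K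

/-- The cylinder `[0,1] × K ⊆ ℝ^(n+1)` over `K ⊆ ℝ^n` (the new coordinate is coordinate `0`). -/
def cyl {n : ℕ} (K : Set (Fin n → ℝ)) : Set (Fin (n + 1) → ℝ) :=
  {w | w 0 ∈ Icc (0 : ℝ) 1 ∧ (fun j : Fin n => w j.succ) ∈ K}

end Vale.Agent.Lib.P230
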