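import Mathlib
import Vale.Agent.Lib.P230.Defs

namespace Vale.Agent.Lib.P230

open MeasureTheory Filter Set
open scoped ENNReal

theorem volume_cyl {n : ℕ} (K : Set (Fin n → ℝ)) : volume (cyl K) = volume K := by
  have hmp := MeasureTheory.volume_preserving_piFinSuccAbove (fun _ : Fin (n + 1) => ℝ) 0
  have hset : cyl K = (MeasurableEquiv.piFinSuccAbove (fun _ : Fin (n + 1) => ℝ) 0) ⁻¹'
      (Icc (0 : ℝ) 1 ×ˢ K) := by
    ext w
    simp only [cyl, MeasurableEquiv.piFinSuccAbove, Fin.insertNthEquiv]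
    simp
    intro _ _
    rfl
  rw [hset, hmp.measure_preimage_equiv, Measure.volume_eq_prod, Measure.prod_prod]
  simp

theorem exists_subset_Q {n : ℕ} {K : Set (Fin n → ℝ)} (hK : IsCompact K) :
    ∃ c : ℝ, 0 ≤ c ∧ K ⊆ Q n c := by
  obtain ⟨c, hc⟩ := hK.isBounded.exists_norm_le
  refine ⟨max c 0, le_max_right _ _, fun x hx i => ?_⟩
  have h1 : ‖x i‖ ≤ ‖x‖ := norm_le_pi_norm x i
  rw [Real.norm_eq_abs] at h1
  exact h1.trans ((hc x hx).trans (le_max_left _ _))

theorem isBody_cyl {n : ℕ} {K : Set (Fin n → ℝ)} (hK : IsBody K) : IsBody (cyl K) := by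
  obtain ⟨hc, hconv, x0, hx0⟩ := hK
  have hcont : Continuous (fun w : Fin (n + 1) → ℝ => (fun j : Fin n => w j.succ)) := by
    fun_prop
  refine ⟨?_, ?_, ?_⟩
  · obtain ⟨c, hc0, hcQ⟩ := exists_subset_Q hc
    apply Metric.isCompact_of_isClosed_isBounded
    · exact (isClosed_Icc.preimage (continuous_apply 0)).inter (hc.isClosed.preimage hcont)
    · apply (Metric.isBounded_closedBall (x := (0 : Fin (n + 1) → ℝ)) (r := max c 1)).subset
      intro w hw
      rw [mem_closedBall_zero_iff, pi_norm_le_iff_of_nonneg (le_max_of_le_left hc0)]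
      intro i
      rw [Real.norm_eq_abs]
      refine Fin.cases ?_ (fun j => ?_) i
      · have := hw.1
        rw [abs_le]
        constructor
        · have h1 : (0 : ℝ) ≤ max c 1 := le_max_of_le_left hc0
          linarith [this.1]
        · exact this.2.trans (le_max_right _ _)
      · exact (hcQ hw.2 j).trans (le_max_left _ _)
  · intro x hx y hy a b ha hb hab
    refine ⟨?_, ?_⟩
    · exact (convex_Icc (0 : ℝ) 1) hx.1 hy.1 ha hb hab
    · exact hconv hx.2 hy.2 ha hb hab
  · refine ⟨Fin.cons (1 / 2) x0, ?_⟩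
    have hopen : IsOpen {w : Fin (n + 1) → ℝ | w 0 ∈ Ioo (0 : ℝ) 1 ∧
        (fun j : Fin n => w j.succ) ∈ interior K} :=
      (isOpen_Ioo.preimage (continuous_apply 0)).inter (isOpen_interior.preimage hcont)
    refine interior_maximal ?_ hopen ?_
    · intro w hw
      exact ⟨Ioo_subset_Icc_self hw.1, interior_subset hw.2⟩
    · refine ⟨?_, ?_⟩
      · simp only [Fin.cons_zero]
        constructor <;> norm_num
      · simpa using hx0

theorem volume_ne_top {n : ℕ} {K : Set (Fin n → ℝ)} (hK : IsBody K) : volume K ≠ ⊤ :=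
  hK.1.measure_lt_top.ne

theorem volume_ne_zero {n : ℕ} {K : Set (Fin n → ℝ)} (hK : IsBody K) : volume K ≠ 0 := by
  have h1 : 0 < volume (interior K) := isOpen_interior.measure_pos volume hK.2.2
  exact (h1.trans_le (measure_mono interior_subset)).ne'

end Vale.Agent.Lib.P230
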