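import Mathlib
import Vale.Agent.Lib.P230.Defs

namespace Vale.Agent.Lib.P230

open MeasureTheory Filter Set Topology
open scoped ENNReal

/-- The periodisation of a finite point set `P` with respect to the lattice `(2ρ) ℤ^n`. -/
def per {n : ℕ} (P : Finset (Fin n → ℝ)) (ρ : ℝ) : Set (Fin n → ℝ) :=
  {y | ∃ p ∈ P, ∃ k : Fin n → ℤ, y = p + fun i => 2 * ρ * (k i : ℝ)}

theorem exists_bound {n : ℕ} (P : Finset (Fin n → ℝ)) :
    ∃ R : ℝ, 0 ≤ R ∧ ∀ p ∈ P, p ∈ Q n R := by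
  refine ⟨∑ p ∈ P, ‖p‖, Finset.sum_nonneg (fun _ _ => norm_nonneg _), fun p hp i => ?_⟩
  have h1 : ‖p i‖ ≤ ‖p‖ := norm_le_pi_norm p i
  rw [Real.norm_eq_abs] at h1
  exact h1.trans (Finset.single_le_sum (f := fun p => ‖p‖) (fun _ _ => norm_nonneg _) hp)

theorem per_inter_subset {n : ℕ} (P : Finset (Fin n → ℝ)) {ρ R : ℝ} (hρ : 0 < ρ)
    (hP : ∀ p ∈ P, p ∈ Q n R) (S : ℝ) :
    per P ρ ∩ Q n S ⊆ ↑((P ×ˢ Fintype.piFinset (fun _ : Fin n =>
      Finset.Icc (-⌊(S + R) / (2 * ρ)⌋) ⌊(S + R) / (2 * ρ)⌋)).image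
        (fun pk : (Fin n → ℝ) × (Fin n → ℤ) => pk.1 + fun i => 2 * ρ * (pk.2 i : ℝ))) := by
  rintro y ⟨⟨p, hp, k, rfl⟩, hy⟩
  rw [Finset.mem_coe, Finset.mem_image]
  refine ⟨(p, k), ?_, rfl⟩
  rw [Finset.mem_product]
  refine ⟨hp, ?_⟩
  rw [Fintype.mem_piFinset]
  intro i
  have h1 := hy i
  have h2 := hP p hp i
  simp only [Pi.add_apply] at h1
  rw [abs_le] at h1 h2
  have h2ρ : 0 < 2 * ρ := by linarith
  rw [Finset.mem_Icc]
  constructor
  · rw [neg_le, Int.le_floor, le_div_iff₀ h2ρ]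
    push_cast
    nlinarith [h1.1, h2.2]
  · rw [Int.le_floor, le_div_iff₀ h2ρ]
    nlinarith [h1.2, h2.1]

theorem locFin_per {n : ℕ} (P : Finset (Fin n → ℝ)) {ρ : ℝ} (hρ : 0 < ρ) :
    LocFin (per P ρ) := by
  obtain ⟨R, _, hP⟩ := exists_bound P
  intro S
  exact (Finset.finite_toSet _).subset (per_inter_subset P hρ hP S)

theorem per_count {n : ℕ} (P : Finset (Fin n → ℝ)) {ρ R : ℝ} (hρ : 0 < ρ) (hR : 0 ≤ R)
    (hP : ∀ p ∈ P, p ∈ Q n R) {S : ℝ} (hS : 0 ≤ S) :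
    ((per P ρ ∩ Q n S).encard : ℝ≥0∞) ≤
      ENNReal.ofReal ((P.card : ℝ) * ((S + R) / ρ + 1) ^ n) := by
  have hsub := per_inter_subset P hρ hP S
  set B : ℤ := ⌊(S + R) / (2 * ρ)⌋ with hB
  have hB0 : 0 ≤ B := Int.floor_nonneg.2 (by positivity)
  have hBle : (B : ℝ) ≤ (S + R) / (2 * ρ) := Int.floor_le _
  have h1 := Set.encard_le_encard hsub
  rw [Set.encard_coe_eq_coe_finsetCard] at h1
  have h2 : ((P ×ˢ Fintype.piFinset (fun _ : Fin n => Finset.Icc (-B) B)).image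
        (fun pk : (Fin n → ℝ) × (Fin n → ℤ) => pk.1 + fun i => 2 * ρ * (pk.2 i : ℝ))).card
      ≤ P.card * ((B + 1 - -B).toNat) ^ n := by
    refine Finset.card_image_le.trans ?_
    rw [Finset.card_product, Fintype.card_piFinset_const, Int.card_Icc]
  have h3 : (((B + 1 - -B).toNat : ℕ) : ℝ) ≤ (S + R) / ρ + 1 := by
    have h4 : (((B + 1 - -B).toNat : ℕ) : ℤ) = B + 1 - -B := Int.toNat_of_nonneg (by linarith)
    have h5 : (((B + 1 - -B).toNat : ℕ) : ℝ) = (B : ℝ) + 1 - -(B : ℝ) := by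
      exact_mod_cast h4
    rw [h5]
    have h6 : (S + R) / ρ = 2 * ((S + R) / (2 * ρ)) := by field_simp
    rw [h6]
    linarith
  have h7 : ((per P ρ ∩ Q n S).encard : ℝ≥0∞) ≤
      ((P.card * ((B + 1 - -B).toNat) ^ n : ℕ) : ℝ≥0∞) := by
    have h8 : (per P ρ ∩ Q n S).encard ≤ ((P.card * ((B + 1 - -B).toNat) ^ n : ℕ) : ℕ∞) :=
      h1.trans (by exact_mod_cast h2)
    have h9 := ENat.toENNReal_le.2 h8
    simpa using h9
  refine h7.trans ?_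
  rw [← ENNReal.ofReal_natCast]
  apply ENNReal.ofReal_le_ofReal
  push_cast
  gcongr

theorem dens_per_le {n : ℕ} (P : Finset (Fin n → ℝ)) {ρ : ℝ} (hρ : 0 < ρ) :
    dens (per P ρ) ≤ ENNReal.ofReal ((P.card : ℝ) / (2 * ρ) ^ n) := by
  obtain ⟨R, hR, hP⟩ := exists_bound P
  set h : ℝ → ℝ := fun S => (P.card : ℝ) * ((1 / (2 * ρ)) * (1 + (R + ρ) / S)) ^ n with hh
  have hlim : Tendsto h atTop (𝓝 ((P.card : ℝ) * ((1 / (2 * ρ)) * (1 + 0)) ^ n)) := by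
    apply Tendsto.const_mul
    apply Tendsto.pow
    apply Tendsto.const_mul
    apply Tendsto.const_add
    exact tendsto_const_nhds.div_atTop tendsto_id
  have hval : (P.card : ℝ) * ((1 / (2 * ρ)) * (1 + 0)) ^ n = (P.card : ℝ) / (2 * ρ) ^ n := by
    rw [add_zero, mul_one, div_pow, one_pow]
    ring
  rw [hval] at hlim
  have hlim2 : Tendsto (fun S => ENNReal.ofReal (h S)) atTop
      (𝓝 (ENNReal.ofReal ((P.card : ℝ) / (2 * ρ) ^ n))) :=
    (ENNReal.continuous_ofReal.tendsto _).comp hlim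
  rw [← hlim2.limsup_eq]
  apply limsup_le_limsup
  · filter_upwards [eventually_gt_atTop (0 : ℝ)] with S hS
    apply ENNReal.div_le_of_le_mul
    rw [← ENNReal.ofReal_mul (by positivity)]
    refine (per_count P hρ hR hP hS.le).trans (le_of_eq ?_)
    congr 1
    simp only [hh]
    rw [mul_assoc, ← mul_pow]
    congr 2
    field_simp
    ring
  · isBoundedDefault
  · isBoundedDefault

theorem covers_per {n : ℕ} {K : Set (Fin n → ℝ)} (P : Finset (Fin n → ℝ)) {ρ : ℝ} (hρ : 0 < ρ)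
    (hcov : ∀ z ∈ Q n ρ, ∃ p ∈ P, z - p ∈ K) : Covers K (per P ρ) := by
  intro z
  set k : Fin n → ℤ := fun i => round (z i / (2 * ρ)) with hk
  have hz' : (z - fun i => 2 * ρ * (k i : ℝ)) ∈ Q n ρ := by
    intro i
    simp only [Pi.sub_apply]
    have h1 := abs_sub_round (z i / (2 * ρ))
    have h2 : z i - 2 * ρ * (k i : ℝ) = 2 * ρ * (z i / (2 * ρ) - (round (z i / (2 * ρ)) : ℝ)) := by
      simp only [hk]
      field_simp
    rw [h2, abs_mul, abs_of_pos (by linarith : (0 : ℝ) < 2 * ρ)]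
    nlinarith
  obtain ⟨p, hp, hpK⟩ := hcov _ hz'
  refine ⟨p + fun i => 2 * ρ * (k i : ℝ), ⟨p, hp, k, rfl⟩, ?_⟩
  have : z - (p + fun i => 2 * ρ * (k i : ℝ)) = (z - fun i => 2 * ρ * (k i : ℝ)) - p := by
    abel
  rw [this]
  exact hpK

theorem thetaT_le_of_finite {n : ℕ} {K : Set (Fin n → ℝ)} (P : Finset (Fin n → ℝ)) {ρ : ℝ}
    (hρ : 0 < ρ) (hcov : ∀ z ∈ Q n ρ, ∃ p ∈ P, z - p ∈ K) :
    thetaT K ≤ volume K * ENNReal.ofReal ((P.card : ℝ) / (2 * ρ) ^ n) := by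
  unfold thetaT
  exact iInf_le_of_le (per P ρ) (iInf_le_of_le (locFin_per P hρ)
    (iInf_le_of_le (covers_per P hρ hcov) (by gcongr; exact dens_per_le P hρ)))

end Vale.Agent.Lib.P230
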