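import Mathlib
import Vale.Agent.Lib.P230.Defs
import Vale.Agent.Lib.P230.Per

namespace Vale.Agent.Lib.P230

open MeasureTheory Filter Set Topology
open scoped ENNReal

theorem slice_bound {n : ℕ} {K : Set (Fin n → ℝ)} {X : Set (Fin (n + 1) → ℝ)}
    (hLF : LocFin X) (hcov : Covers (cyl K) X) {c : ℝ} (hKc : K ⊆ Q n c)
    (m : ℕ) (hm : 0 < m) (hc : c < (m : ℝ) + 1) :
    thetaT K ≤ volume K * ENNReal.ofReal
      ((((hLF ((m : ℝ) + 1)).toFinset.card : ℝ) / (2 * (m : ℝ))) /
        (2 * ((m : ℝ) + 1 - c)) ^ n) := by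
  classical
  have hm0 : (0 : ℝ) < m := by exact_mod_cast hm
  set R : ℝ := (m : ℝ) + 1 with hR
  set σ : ℝ := ((m : ℝ) + 1) / m with hσ
  have hσm : σ * m = (m : ℝ) + 1 := by
    rw [hσ]; field_simp
  have hσ1 : 1 < σ := by
    rw [hσ, lt_div_iff₀ hm0]; linarith
  have hσ0 : 0 < σ := by linarith
  set F : Finset (Fin (n + 1) → ℝ) := (hLF R).toFinset with hF
  set f : (Fin (n + 1) → ℝ) → ℕ := fun x => ⌊(x 0 + R) / σ⌋₊ with hf
  have hne : (Finset.range (2 * m)).Nonempty := by
    rw [Finset.nonempty_range_iff]; omega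
  have hb : (F.card : ℝ) ≤ (Finset.range (2 * m)).card • ((F.card : ℝ) / (2 * (m : ℝ))) := by
    rw [Finset.card_range, nsmul_eq_mul]
    push_cast
    apply le_of_eq
    field_simp
  obtain ⟨j, hj, hjcard⟩ := Finset.exists_card_fiber_le_of_card_le_nsmul (f := f) hne hb
  rw [Finset.mem_range] at hj
  have hj' : (j : ℝ) + 1 ≤ 2 * (m : ℝ) := by exact_mod_cast hj
  set t : ℝ := -R + j * σ + 1 with ht
  set P : Finset (Fin n → ℝ) :=
    (F.filter (fun x => f x = j)).image (fun w => fun i : Fin n => w i.succ) with hP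
  have hρ : 0 < R - c := by linarith
  have hPcard : (P.card : ℝ) ≤ (F.card : ℝ) / (2 * (m : ℝ)) := by
    refine le_trans ?_ hjcard
    exact_mod_cast Finset.card_image_le
  have hcovP : ∀ z ∈ Q n (R - c), ∃ p ∈ P, z - p ∈ K := by
    intro z hz
    obtain ⟨x, hxX, hx0, hxK⟩ := hcov (Fin.cons t z)
    simp only [Pi.sub_apply, Fin.cons_zero, Fin.cons_succ] at hx0 hxK
    have hjσ : 0 ≤ (j : ℝ) * σ := by positivity
    have hx0l : -R + j * σ ≤ x 0 := by
      have := hx0.2
      rw [ht] at this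
      linarith
    have hx0u : x 0 ≤ -R + j * σ + 1 := by
      have := hx0.1
      rw [ht] at this
      linarith
    have hupper : (j : ℝ) * σ + 1 ≤ 2 * R := by
      have h1 : ((j : ℝ) + 1) * σ ≤ 2 * (m : ℝ) * σ := by gcongr
      have h2 : 2 * (m : ℝ) * σ = 2 * R := by
        rw [hR, ← hσm]; ring
      nlinarith
    refine ⟨fun i : Fin n => x i.succ, ?_, hxK⟩
    rw [hP, Finset.mem_image]
    refine ⟨x, ?_, rfl⟩
    rw [Finset.mem_filter]
    constructor
    · rw [hF, Set.Finite.mem_toFinset]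
      refine ⟨hxX, fun i => ?_⟩
      refine Fin.cases ?_ (fun i' => ?_) i
      · rw [abs_le]
        constructor <;> linarith
      · have h1 := hKc hxK i'
        have h2 := hz i'
        rw [abs_le] at h1 h2 ⊢
        constructor <;> linarith [h1.1, h1.2, h2.1, h2.2]
    · simp only [hf]
      rw [Nat.floor_eq_iff (by apply div_nonneg <;> linarith)]
      constructor
      · rw [le_div_iff₀ hσ0]; linarith
      · rw [div_lt_iff₀ hσ0]; nlinarith
  refine (thetaT_le_of_finite P hρ hcovP).trans ?_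
  gcongr

end Vale.Agent.Lib.P230
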