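import Mathlib
import Vale.Agent.Lib.P230.Defs
import Vale.Agent.Lib.P230.Cyl
import Vale.Agent.Lib.P230.Per
import Vale.Agent.Lib.P230.Slab

namespace Vale.Agent.Lib.P230

open MeasureTheory Filter Set Topology
open scoped ENNReal

theorem thetaT_le_of_dens_lt {n : ℕ} {K : Set (Fin n → ℝ)} (hK : IsBody K)
    {X : Set (Fin (n + 1) → ℝ)} (hLF : LocFin X) (hcov : Covers (cyl K) X)
    {D : ℝ} (hD0 : 0 ≤ D) (hD : dens X < ENNReal.ofReal D) :
    thetaT K ≤ volume K * ENNReal.ofReal D := by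
  obtain ⟨c, hc0, hKc⟩ := exists_subset_Q hK.1
  set g : ℕ → ℝ := fun m => D * ((1 + 1 * (m : ℝ)) / (0 + 1 * (m : ℝ))) *
    ((1 + 1 * (m : ℝ)) / ((1 - c) + 1 * (m : ℝ))) ^ n with hg
  have hlim : Tendsto g atTop (𝓝 (D * (1 / 1) * (1 / 1) ^ n)) := by
    apply Tendsto.mul
    · apply Tendsto.const_mul
      exact tendsto_add_mul_div_add_mul_atTop_nhds (1 : ℝ) 0 1 one_ne_zero
    · apply Tendsto.pow
      exact tendsto_add_mul_div_add_mul_atTop_nhds (1 : ℝ) (1 - c) 1 one_ne_zero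
  have hval : D * (1 / 1) * (1 / 1) ^ n = D := by simp
  rw [hval] at hlim
  have hlim2 : Tendsto (fun m => volume K * ENNReal.ofReal (g m)) atTop
      (𝓝 (volume K * ENNReal.ofReal D)) :=
    ENNReal.Tendsto.const_mul ((ENNReal.continuous_ofReal.tendsto _).comp hlim)
      (Or.inr (volume_ne_top hK))
  refine ge_of_tendsto hlim2 ?_
  have hev := eventually_lt_of_limsup_lt hD
  have htend : Tendsto (fun m : ℕ => (m : ℝ) + 1) atTop atTop :=
    tendsto_atTop_add_const_right _ _ tendsto_natCast_atTop_atTop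
  have hev2 := htend.eventually hev
  have hev3 : ∀ᶠ m : ℕ in atTop, c < (m : ℝ) + 1 :=
    htend.eventually (eventually_gt_atTop c)
  filter_upwards [hev2, hev3, eventually_gt_atTop 0] with m h2 h3 hm
  refine (slice_bound hLF hcov hKc m hm h3).trans ?_
  have hm0 : (0 : ℝ) < m := by exact_mod_cast hm
  have hR0 : (0 : ℝ) < (m : ℝ) + 1 := by linarith
  have hpos : (0 : ℝ) < (2 * ((m : ℝ) + 1)) ^ (n + 1) := by positivity
  rw [(hLF ((m : ℝ) + 1)).encard_eq_coe_toFinset_card] at h2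
  rw [ENNReal.div_lt_iff (Or.inl (by simpa using hpos)) (Or.inl ENNReal.ofReal_ne_top),
    ← ENNReal.ofReal_mul hD0] at h2
  have h4 : (((hLF ((m : ℝ) + 1)).toFinset.card : ℕ) : ℝ) < D * (2 * ((m : ℝ) + 1)) ^ (n + 1) := by
    have h5 : (((((hLF ((m : ℝ) + 1)).toFinset.card : ℕ) : ℕ∞) : ℝ≥0∞)) =
        ENNReal.ofReal (((hLF ((m : ℝ) + 1)).toFinset.card : ℕ) : ℝ) := by
      rw [ENNReal.ofReal_natCast]; simp
    rw [h5] at h2
    exact (ENNReal.ofReal_lt_ofReal_iff_of_nonneg (by positivity)).1 h2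
  gcongr
  have hρ : 0 < (m : ℝ) + 1 - c := by linarith
  have h6 : g m = (D * (2 * ((m : ℝ) + 1)) ^ (n + 1)) / (2 * (m : ℝ)) /
      (2 * ((m : ℝ) + 1 - c)) ^ n := by
    simp only [hg]
    have e1 : (1 - c) + 1 * (m : ℝ) = (m : ℝ) + 1 - c := by ring
    have e2 : 1 + 1 * (m : ℝ) = (m : ℝ) + 1 := by ring
    have e3 : 0 + 1 * (m : ℝ) = (m : ℝ) := by ring
    rw [e1, e2, e3, div_pow, mul_pow, mul_pow, pow_succ, pow_succ]
    field_simp
  rw [h6]
  gcongr

theorem thetaT_le_cyl {n : ℕ} {K : Set (Fin n → ℝ)} (hK : IsBody K) :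
    thetaT K ≤ thetaT (cyl K) := by
  refine le_iInf fun X => le_iInf fun hLF => le_iInf fun hcov => ?_
  rw [volume_cyl, mul_comm,
    ← ENNReal.div_le_iff_le_mul (Or.inl (volume_ne_zero hK)) (Or.inl (volume_ne_top hK))]
  apply le_of_forall_gt_imp_ge_of_dense
  intro b hb
  obtain ⟨D, hD0, hD1, hD2⟩ := ENNReal.lt_iff_exists_real_btwn.1 hb
  refine le_trans ?_ hD2.le
  rw [ENNReal.div_le_iff_le_mul (Or.inl (volume_ne_zero hK)) (Or.inl (volume_ne_top hK)), mul_comm]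
  exact thetaT_le_of_dens_lt hK hLF hcov hD0 hD1

theorem ThetaT_mono_succ (n : ℕ) : ThetaT n ≤ ThetaT (n + 1) := by
  refine iSup_le fun K => iSup_le fun hK => ?_
  exact (thetaT_le_cyl hK).trans (le_iSup_of_le (cyl K) (le_iSup_of_le (isBody_cyl hK) le_rfl))

end Vale.Agent.Lib.P230
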