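import Mathlib
import Vale.Agent.Lib.P230.Defs
import Vale.Agent.Lib.P230.Cyl
import Vale.Agent.Lib.P230.Per

namespace Vale.Agent.Lib.P230

open MeasureTheory Filter Set Topology
open scoped ENNReal

/-- The infimum of the densities `vol(K) #P / (2ρ)^n` of the periodic coverings
`K + P + (2ρ) ℤ^n = ℝ^n` with `P` finite and `ρ > 0`. -/
noncomputable def thetaPer {n : ℕ} (K : Set (Fin n → ℝ)) : ℝ≥0∞ :=
  ⨅ (P : Finset (Fin n → ℝ)) (ρ : ℝ) (_ : 0 < ρ) (_ : Covers K (per P ρ)),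
    volume K * ENNReal.ofReal ((P.card : ℝ) / (2 * ρ) ^ n)

theorem thetaT_le_thetaPer {n : ℕ} (K : Set (Fin n → ℝ)) : thetaT K ≤ thetaPer K := by
  refine le_iInf fun P => le_iInf fun ρ => le_iInf fun hρ => le_iInf fun hcov => ?_
  unfold thetaT
  exact iInf_le_of_le (per P ρ) (iInf_le_of_le (locFin_per P hρ)
    (iInf_le_of_le hcov (by gcongr; exact dens_per_le P hρ)))

theorem thetaPer_le_of_finite {n : ℕ} {K : Set (Fin n → ℝ)} (P : Finset (Fin n → ℝ)) {ρ : ℝ}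
    (hρ : 0 < ρ) (hcov : ∀ z ∈ Q n ρ, ∃ p ∈ P, z - p ∈ K) :
    thetaPer K ≤ volume K * ENNReal.ofReal ((P.card : ℝ) / (2 * ρ) ^ n) := by
  unfold thetaPer
  exact iInf_le_of_le P (iInf_le_of_le ρ (iInf_le_of_le hρ
    (iInf_le_of_le (covers_per P hρ hcov) le_rfl)))

theorem thetaPer_le_of_dens_lt {n : ℕ} {K : Set (Fin n → ℝ)} (hK : IsBody K)
    {X : Set (Fin n → ℝ)} (hLF : LocFin X) (hcov : Covers K X)
    {D : ℝ} (hD0 : 0 ≤ D) (hD : dens X < ENNReal.ofReal D) :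
    thetaPer K ≤ volume K * ENNReal.ofReal D := by
  obtain ⟨c, hc0, hKc⟩ := exists_subset_Q hK.1
  set g : ℕ → ℝ := fun m => D * ((1 + 1 * (m : ℝ)) / ((1 - c) + 1 * (m : ℝ))) ^ n with hg
  have hlim : Tendsto g atTop (𝓝 (D * (1 / 1) ^ n)) := by
    apply Tendsto.const_mul
    apply Tendsto.pow
    exact tendsto_add_mul_div_add_mul_atTop_nhds (1 : ℝ) (1 - c) 1 one_ne_zero
  have hval : D * (1 / 1) ^ n = D := by simp
  rw [hval] at hlim
  have hlim2 : Tendsto (fun m => volume K * ENNReal.ofReal (g m)) atTop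
      (𝓝 (volume K * ENNReal.ofReal D)) :=
    ENNReal.Tendsto.const_mul ((ENNReal.continuous_ofReal.tendsto _).comp hlim)
      (Or.inr (volume_ne_top hK))
  refine ge_of_tendsto hlim2 ?_
  have hev := eventually_lt_of_limsup_lt hD
  have htend : Tendsto (fun m : ℕ => (m : ℝ) + 1) atTop atTop :=
    tendsto_atTop_add_const_right _ _ tendsto_natCast_atTop_atTop
  have hev2 := htend.eventually hev
  have hev3 : ∀ᶠ m : ℕ in atTop, c < (m : ℝ) + 1 :=
    htend.eventually (eventually_gt_atTop c)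
  filter_upwards [hev2, hev3] with m h2 h3
  have hρ : 0 < (m : ℝ) + 1 - c := by linarith
  have hcovP : ∀ z ∈ Q n ((m : ℝ) + 1 - c), ∃ p ∈ (hLF ((m : ℝ) + 1)).toFinset, z - p ∈ K := by
    intro z hz
    obtain ⟨x, hxX, hxK⟩ := hcov z
    refine ⟨x, ?_, hxK⟩
    rw [Set.Finite.mem_toFinset]
    refine ⟨hxX, fun i => ?_⟩
    have h1 := hKc hxK i
    have h2 := hz i
    simp only [Pi.sub_apply] at h1
    rw [abs_le] at h1 h2 ⊢
    constructor <;> linarith [h1.1, h1.2, h2.1, h2.2]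
  refine (thetaPer_le_of_finite _ hρ hcovP).trans ?_
  have hR0 : (0 : ℝ) < (m : ℝ) + 1 := by positivity
  have hpos : (0 : ℝ) < (2 * ((m : ℝ) + 1)) ^ n := by positivity
  rw [(hLF ((m : ℝ) + 1)).encard_eq_coe_toFinset_card] at h2
  rw [ENNReal.div_lt_iff (Or.inl (by simpa using hpos)) (Or.inl ENNReal.ofReal_ne_top),
    ← ENNReal.ofReal_mul hD0] at h2
  have h4 : (((hLF ((m : ℝ) + 1)).toFinset.card : ℕ) : ℝ) < D * (2 * ((m : ℝ) + 1)) ^ n := by
    have h5 : (((((hLF ((m : ℝ) + 1)).toFinset.card : ℕ) : ℕ∞) : ℝ≥0∞)) =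
        ENNReal.ofReal (((hLF ((m : ℝ) + 1)).toFinset.card : ℕ) : ℝ) := by
      rw [ENNReal.ofReal_natCast]; simp
    rw [h5] at h2
    exact (ENNReal.ofReal_lt_ofReal_iff_of_nonneg (by positivity)).1 h2
  gcongr
  have h6 : g m = (D * (2 * ((m : ℝ) + 1)) ^ n) / (2 * ((m : ℝ) + 1 - c)) ^ n := by
    simp only [hg]
    have e1 : (1 - c) + 1 * (m : ℝ) = (m : ℝ) + 1 - c := by ring
    have e2 : 1 + 1 * (m : ℝ) = (m : ℝ) + 1 := by ring
    rw [e1, e2, div_pow, mul_pow, mul_pow]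
    field_simp
  rw [h6]
  gcongr

theorem thetaPer_le_thetaT {n : ℕ} {K : Set (Fin n → ℝ)} (hK : IsBody K) :
    thetaPer K ≤ thetaT K := by
  refine le_iInf fun X => le_iInf fun hLF => le_iInf fun hcov => ?_
  rw [mul_comm,
    ← ENNReal.div_le_iff_le_mul (Or.inl (volume_ne_zero hK)) (Or.inl (volume_ne_top hK))]
  apply le_of_forall_gt_imp_ge_of_dense
  intro b hb
  obtain ⟨D, hD0, hD1, hD2⟩ := ENNReal.lt_iff_exists_real_btwn.1 hb
  refine le_trans ?_ hD2.le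
  rw [ENNReal.div_le_iff_le_mul (Or.inl (volume_ne_zero hK)) (Or.inl (volume_ne_top hK)), mul_comm]
  exact thetaPer_le_of_dens_lt hK hLF hcov hD0 hD1

theorem thetaT_eq_thetaPer {n : ℕ} {K : Set (Fin n → ℝ)} (hK : IsBody K) :
    thetaT K = thetaPer K :=
  le_antisymm (thetaT_le_thetaPer K) (thetaPer_le_thetaT hK)

end Vale.Agent.Lib.P230
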