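import Mathlib
import Vale.Agent.Lib.P230.Defs
import Vale.Agent.Lib.P230.Cyl
import Vale.Agent.Lib.P230.Main

namespace Vale.Agent.Lib.P230

open MeasureTheory Filter Set Topology
open scoped ENNReal

/-- The point set `ℤ × X ⊆ ℝ^(n+1)`. -/
def stack {n : ℕ} (X : Set (Fin n → ℝ)) : Set (Fin (n + 1) → ℝ) :=
  {w | (∃ k : ℤ, w 0 = (k : ℝ)) ∧ (fun j : Fin n => w j.succ) ∈ X}

theorem covers_stack {n : ℕ} {K X : Set (Fin n → ℝ)} (h : Covers K X) :
    Covers (cyl K) (stack X) := by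
  intro w
  obtain ⟨x, hx, hxK⟩ := h (fun j => w j.succ)
  refine ⟨Fin.cons ((⌊w 0⌋ : ℤ) : ℝ) x, ⟨⟨⌊w 0⌋, by simp⟩, by simpa using hx⟩, ?_, ?_⟩
  · simp only [Pi.sub_apply, Fin.cons_zero]
    exact ⟨by linarith [Int.floor_le (w 0)], by linarith [Int.lt_floor_add_one (w 0)]⟩
  · exact hxK

theorem stack_inter_subset {n : ℕ} {X : Set (Fin n → ℝ)} (hLF : LocFin X) (R : ℝ) :
    stack X ∩ Q (n + 1) R ⊆ ↑((Finset.Icc (-⌊R⌋) ⌊R⌋ ×ˢ (hLF R).toFinset).image
      (fun kx : ℤ × (Fin n → ℝ) => (Fin.cons (kx.1 : ℝ) kx.2 : Fin (n + 1) → ℝ))) := by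
  rintro w ⟨⟨⟨k, hk⟩, hwX⟩, hwQ⟩
  rw [Finset.mem_coe, Finset.mem_image]
  refine ⟨(k, fun j => w j.succ), ?_, ?_⟩
  · rw [Finset.mem_product]
    constructor
    · have h0 := hwQ 0
      rw [hk, abs_le] at h0
      rw [Finset.mem_Icc]
      constructor
      · rw [neg_le, Int.le_floor]
        push_cast
        linarith [h0.1]
      · rw [Int.le_floor]
        exact h0.2
    · rw [Set.Finite.mem_toFinset]
      exact ⟨hwX, fun j => hwQ j.succ⟩
  · funext i
    refine Fin.cases ?_ (fun j => ?_) i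
    · simp [hk]
    · simp

theorem locFin_stack {n : ℕ} {X : Set (Fin n → ℝ)} (hLF : LocFin X) : LocFin (stack X) :=
  fun R => (Finset.finite_toSet _).subset (stack_inter_subset hLF R)

theorem stack_count {n : ℕ} {X : Set (Fin n → ℝ)} (hLF : LocFin X) {R : ℝ} (hR : 0 ≤ R) :
    ((stack X ∩ Q (n + 1) R).encard : ℝ≥0∞) ≤
      ENNReal.ofReal (2 * R + 1) * ((X ∩ Q n R).encard : ℝ≥0∞) := by
  have hsub := stack_inter_subset hLF R
  set B : ℤ := ⌊R⌋ with hB
  have hB0 : 0 ≤ B := Int.floor_nonneg.2 hR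
  have hBle : (B : ℝ) ≤ R := Int.floor_le _
  have h1 := Set.encard_le_encard hsub
  rw [Set.encard_coe_eq_coe_finsetCard] at h1
  have h2 : ((Finset.Icc (-B) B ×ˢ (hLF R).toFinset).image
      (fun kx : ℤ × (Fin n → ℝ) => (Fin.cons (kx.1 : ℝ) kx.2 : Fin (n + 1) → ℝ))).card
      ≤ (B + 1 - -B).toNat * (hLF R).toFinset.card := by
    refine Finset.card_image_le.trans ?_
    rw [Finset.card_product, Int.card_Icc]
  have h3 : (((B + 1 - -B).toNat : ℕ) : ℝ) ≤ 2 * R + 1 := by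
    have h4 : (((B + 1 - -B).toNat : ℕ) : ℤ) = B + 1 - -B := Int.toNat_of_nonneg (by linarith)
    have h5 : (((B + 1 - -B).toNat : ℕ) : ℝ) = (B : ℝ) + 1 - -(B : ℝ) := by
      exact_mod_cast h4
    rw [h5]
    linarith
  have h7 : ((stack X ∩ Q (n + 1) R).encard : ℝ≥0∞) ≤
      (((B + 1 - -B).toNat * (hLF R).toFinset.card : ℕ) : ℝ≥0∞) := by
    have h8 : (stack X ∩ Q (n + 1) R).encard ≤
        (((B + 1 - -B).toNat * (hLF R).toFinset.card : ℕ) : ℕ∞) :=
      h1.trans (by exact_mod_cast h2)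
    have h9 := ENat.toENNReal_le.2 h8
    simpa using h9
  refine h7.trans ?_
  rw [(hLF R).encard_eq_coe_toFinset_card]
  push_cast
  have h10 : (((B + 1 - -B).toNat : ℕ) : ℝ≥0∞) ≤ ENNReal.ofReal (2 * R + 1) := by
    rw [← ENNReal.ofReal_natCast]
    exact ENNReal.ofReal_le_ofReal h3
  gcongr

theorem dens_stack_le {n : ℕ} {X : Set (Fin n → ℝ)} (hLF : LocFin X) :
    dens (stack X) ≤ dens X := by
  set u : ℝ → ℝ≥0∞ := fun R => ENNReal.ofReal (1 + 1 / (2 * R)) with hu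
  set v : ℝ → ℝ≥0∞ := fun R => ((X ∩ Q n R).encard : ℝ≥0∞) / ENNReal.ofReal ((2 * R) ^ n) with hv
  have hlim : Tendsto (fun R : ℝ => 1 + 1 / (2 * R)) atTop (𝓝 (1 + 0)) := by
    apply Tendsto.const_add
    apply tendsto_const_nhds.div_atTop
    exact tendsto_id.const_mul_atTop (by norm_num : (0 : ℝ) < 2)
  have hlimu : Tendsto u atTop (𝓝 (ENNReal.ofReal (1 + 0))) :=
    (ENNReal.continuous_ofReal.tendsto _).comp hlim
  have hu1 : limsup u atTop = 1 := by
    rw [hlimu.limsup_eq]; simp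
  have hmul : limsup (u * v) atTop ≤ limsup u atTop * limsup v atTop := by
    apply ENNReal.limsup_mul_le'
    · left; rw [hu1]; exact one_ne_zero
    · left; rw [hu1]; exact ENNReal.one_ne_top
  rw [hu1, one_mul] at hmul
  refine le_trans ?_ hmul
  apply limsup_le_limsup
  · filter_upwards [eventually_gt_atTop (0 : ℝ)] with R hR
    simp only [Pi.mul_apply, hu, hv]
    apply ENNReal.div_le_of_le_mul
    refine (stack_count hLF hR.le).trans (le_of_eq ?_)
    have hpos : (0 : ℝ) < (2 * R) ^ n := by positivity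
    have h1 : ENNReal.ofReal ((2 * R) ^ (n + 1)) =
        ENNReal.ofReal (2 * R) * ENNReal.ofReal ((2 * R) ^ n) := by
      rw [← ENNReal.ofReal_mul (by positivity)]
      congr 1
      ring
    have h2 : ENNReal.ofReal (2 * R + 1) =
        ENNReal.ofReal (1 + 1 / (2 * R)) * ENNReal.ofReal (2 * R) := by
      rw [← ENNReal.ofReal_mul (by positivity)]
      congr 1
      field_simp
    have h3 : ENNReal.ofReal ((2 * R) ^ n) ≠ 0 := by simpa using hpos
    have h4 : ENNReal.ofReal ((2 * R) ^ n) ≠ ⊤ := ENNReal.ofReal_ne_top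
    rw [h1, h2]
    calc ENNReal.ofReal (1 + 1 / (2 * R)) * ENNReal.ofReal (2 * R) * ((X ∩ Q n R).encard : ℝ≥0∞)
        = ENNReal.ofReal (1 + 1 / (2 * R)) * ENNReal.ofReal (2 * R) *
          (((X ∩ Q n R).encard : ℝ≥0∞) / ENNReal.ofReal ((2 * R) ^ n) *
            ENNReal.ofReal ((2 * R) ^ n)) := by
          rw [ENNReal.div_mul_cancel h3 h4]
      _ = _ := by ring
  · isBoundedDefault
  · isBoundedDefault

theorem thetaT_cyl_le {n : ℕ} (K : Set (Fin n → ℝ)) : thetaT (cyl K) ≤ thetaT K := by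
  refine le_iInf fun X => le_iInf fun hLF => le_iInf fun hcov => ?_
  refine iInf_le_of_le (stack X) (iInf_le_of_le (locFin_stack hLF)
    (iInf_le_of_le (covers_stack hcov) ?_))
  rw [volume_cyl]
  gcongr
  exact dens_stack_le hLF

theorem thetaT_cyl {n : ℕ} {K : Set (Fin n → ℝ)} (hK : IsBody K) : thetaT (cyl K) = thetaT K :=
  le_antisymm (thetaT_cyl_le K) (thetaT_le_cyl hK)

theorem ThetaT_monotone : Monotone ThetaT := monotone_nat_of_le_succ ThetaT_mono_succ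

end Vale.Agent.Lib.P230
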